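import Vale.Agent.P086.Group

namespace Vale.Agent.Results.P086.FreeFactors

/-- The free group factors `L(F_3) = λ(F_3)''` and `L(F_4) = λ(F_4)''` are *-isomorphic.
Here `ℓ²(G)` is any Hilbert space with an orthonormal basis `(δ h)` indexed by `G`, and
`λ(g)` is the bounded operator with `λ(g) (δ h) = δ (g h)`. -/
theorem result {H K : Type*}
    [NormedAddCommGroup H] [InnerProductSpace ℂ H] [CompleteSpace H]
    [NormedAddCommGroup K] [InnerProductSpace ℂ K] [CompleteSpace K]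
    (δ : HilbertBasis (FreeGroup (Fin 3)) ℂ H) (ε : HilbertBasis (FreeGroup (Fin 4)) ℂ K) :
    Nonempty (
      StarSubalgebra.centralizer ℂ (StarSubalgebra.centralizer ℂ
        {T : H →L[ℂ] H | ∃ g, ∀ h, T (δ h) = δ (g * h)} : Set (H →L[ℂ] H)) ≃⋆ₐ[ℂ]
      StarSubalgebra.centralizer ℂ (StarSubalgebra.centralizer ℂ
        {T : K →L[ℂ] K | ∃ g, ∀ h, T (ε h) = ε (g * h)} : Set (K →L[ℂ] K))) :=
  Vale.Agent.P086.main' δ ε

end Vale.Agent.Results.P086.FreeFactors
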